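import Mathlib

/-!
# Definitions for the entropy photon-number inequality on Fock-diagonal inputs

* `g t = (t + 1) log (t + 1) - t log t`, the entropy of the thermal state of mean photon number `t`.
* `bsAmp η j k m`, the matrix element of the beam splitter `U_η` between the Fock vectors
  `|j, k>` (input) and `|m, j + k - m>` (output).  It comes from
  `U_η |j, k> = (sqrt η a† - sqrt (1 - η) b†) ^ j (sqrt (1 - η) a† + sqrt η b†) ^ k |0, 0> / sqrt (j! k!)`.
* `outDist η α β`, the photon-number distribution of the output modes when the two `n`-mode inputs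
  are diagonal in the Fock basis with photon-number distributions `α` and `β`.
* `entropy P`, the Shannon entropy (natural logarithm) of a finite distribution.
-/

namespace Vale.Agent.Lib.P369

/-- `g t = (t + 1) log (t + 1) - t log t`. -/
noncomputable def g (t : ℝ) : ℝ := (t + 1) * Real.log (t + 1) - t * Real.log t

/-- The Fock-basis matrix element of the beam splitter of transmissivity `η` from `|j, k>` to
`|m, j + k - m>`. -/
noncomputable def bsAmp (η : ℝ) (j k m : ℕ) : ℝ :=
  (∑ i ∈ Finset.range (m + 1),
      (j.choose i : ℝ) * (k.choose (m - i) : ℝ) * Real.sqrt η ^ i * (-Real.sqrt (1 - η)) ^ (j - i)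
        * Real.sqrt (1 - η) ^ (m - i) * Real.sqrt η ^ (k - (m - i)))
    * Real.sqrt ((m.factorial : ℝ) * ((j + k - m).factorial : ℝ)
        / ((j.factorial : ℝ) * (k.factorial : ℝ)))

/-- Photon-number distribution of the `n` output modes for Fock-diagonal inputs with at most `K`
photons in each mode. -/
noncomputable def outDist (η : ℝ) {n K : ℕ} (α β : (Fin n → Fin (K + 1)) → ℝ)
    (z : Fin n → Fin (2 * K + 1)) : ℝ :=
  ∑ x, ∑ y, α x * β y * ∏ i, bsAmp η (x i) (y i) (z i) ^ 2

/-- Shannon entropy of a finite distribution, natural logarithm. -/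
noncomputable def entropy {ι : Type*} [Fintype ι] (P : ι → ℝ) : ℝ := ∑ i, Real.negMulLog (P i)

end Vale.Agent.Lib.P369
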