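import Mathlib
import Vale.Agent.Lib.P369.Defs

/-!
# Real-variable lemmas for P369
-/

namespace Vale.Agent.Lib.P369
open Real

lemma g_eq (t : ℝ) : g t = negMulLog t - negMulLog (t + 1) := by
  simp only [g, negMulLog]; ring

lemma g_zero : g 0 = 0 := by simp [g]

lemma g_continuous : Continuous g := by
  have : g = fun t => negMulLog t - negMulLog (t + 1) := funext g_eq
  rw [this]
  fun_prop

lemma hasDerivAt_g {t : ℝ} (ht : 0 < t) : HasDerivAt g (log (t + 1) - log t) t := by
  have h1 := hasDerivAt_negMulLog ht.ne'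
  have h2 : HasDerivAt (fun s : ℝ => negMulLog (s + 1)) (-log (t + 1) - 1) t := by
    have := (hasDerivAt_negMulLog (x := t + 1) (by linarith)).comp_add_const t 1
    simpa using this
  have h3 := h1.sub h2
  have : g = fun t => negMulLog t - negMulLog (t + 1) := funext g_eq
  rw [this]
  exact h3.congr_deriv (by ring)

lemma log_diff_pos {t : ℝ} (ht : 0 < t) : 0 < log (t + 1) - log t := by
  have := Real.log_lt_log ht (by linarith : t < t + 1)
  linarith

lemma g_strictMonoOn : StrictMonoOn g (Set.Ici 0) := by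
  apply strictMonoOn_of_deriv_pos (convex_Ici 0) g_continuous.continuousOn
  intro t ht
  rw [interior_Ici] at ht
  rw [(hasDerivAt_g ht).deriv]
  exact log_diff_pos ht

lemma g_le_iff {s t : ℝ} (hs : 0 ≤ s) (ht : 0 ≤ t) : g s ≤ g t ↔ s ≤ t :=
  g_strictMonoOn.le_iff_le hs ht

lemma g_lt_iff {s t : ℝ} (hs : 0 ≤ s) (ht : 0 ≤ t) : g s < g t ↔ s < t :=
  g_strictMonoOn.lt_iff_lt hs ht

/-- `w(t) = t (t+1) (g'(t))^2` -/
noncomputable def w (t : ℝ) : ℝ := t * (t + 1) * (log (t + 1) - log t) ^ 2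

lemma two_le_log_diff {t : ℝ} (ht : 0 < t) : 2 ≤ (1 + 2 * t) * (log (t + 1) - log t) := by
  have h1 := le_log_one_add_of_nonneg (x := 1 / t) (by positivity)
  have h2 : log (1 + 1 / t) = log (t + 1) - log t := by
    rw [← Real.log_div (by linarith) ht.ne']
    congr 1
    field_simp
  rw [h2] at h1
  have h3 : 2 * (1 / t) / (1 / t + 2) = 2 / (1 + 2 * t) := by
    field_simp
  rw [h3, div_le_iff₀ (by positivity)] at h1
  linarith

lemma hasDerivAt_w {t : ℝ} (ht : 0 < t) : HasDerivAt w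
    ((log (t + 1) - log t) * ((1 + 2 * t) * (log (t + 1) - log t) - 2)) t := by
  have hL : HasDerivAt (fun s : ℝ => log (s + 1) - log s) (1 / (t + 1) - 1 / t) t := by
    have h1 : HasDerivAt (fun s : ℝ => log (s + 1)) (1 / (t + 1)) t := by
      have := (Real.hasDerivAt_log (x := t + 1) (by linarith)).comp_add_const t 1
      simpa using this
    have h2 : HasDerivAt (fun s : ℝ => log s) (1 / t) t := by
      simpa using Real.hasDerivAt_log ht.ne'
    exact h1.sub h2
  have hP : HasDerivAt (fun s : ℝ => s * (s + 1)) (1 * (t + 1) + t * 1) t :=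
    (hasDerivAt_id t).mul ((hasDerivAt_id t).add_const 1)
  have := hP.mul (hL.pow 2)
  have hw : w = (fun s : ℝ => s * (s + 1)) * ((fun s : ℝ => log (s + 1) - log s) ^ 2) := by
    funext s; simp [w]
  rw [hw]
  refine this.congr_deriv ?_
  simp only [Pi.pow_apply]
  field_simp
  ring

lemma w_monotoneOn : MonotoneOn w (Set.Ioi 0) := by
  apply monotoneOn_of_deriv_nonneg (convex_Ioi 0)
  · intro t ht
    exact (hasDerivAt_w ht).continuousAt.continuousWithinAt
  · intro t ht
    rw [interior_Ioi] at ht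
    exact (hasDerivAt_w ht).differentiableAt.differentiableWithinAt
  · intro t ht
    rw [interior_Ioi] at ht
    rw [(hasDerivAt_w ht).deriv]
    apply mul_nonneg (log_diff_pos ht).le
    linarith [two_le_log_diff ht]

lemma neg_log_ge {x : ℝ} (hx0 : 0 < x) (hx1 : x ≤ 1) : (1 - x) + (1 - x) ^ 2 / 2 ≤ -log x := by
  have hy : |1 - x| < 1 := by rw [abs_lt]; constructor <;> linarith
  have h := hasSum_pow_div_log_of_abs_lt_one hy
  have h2 := sum_le_hasSum (Finset.range 2) (fun n _ => by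
    have : 0 ≤ 1 - x := by linarith
    positivity) h
  simp only [Finset.sum_range_succ, Finset.sum_range_zero] at h2
  norm_num at h2
  linarith

lemma g_mul_one_sub_le {x : ℝ} (hx0 : 0 ≤ x) (hx1 : x ≤ 1) : g (x * (1 - x)) ≤ binEntropy x := by
  rcases eq_or_lt_of_le hx0 with rfl | hx0
  · simp [g_zero]
  rcases eq_or_lt_of_le hx1 with rfl | hx1
  · simp [g_zero]
  set y := 1 - x with hy
  have hy0 : 0 < y := by linarith
  have hxy : 0 < x * y := by positivity
  have h1 : log (x * y + 1) ≤ x * y := by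
    have := log_le_sub_one_of_pos (x := x * y + 1) (by linarith)
    linarith
  have h2 := neg_log_ge hx0 hx1.le
  have h3 := neg_log_ge hy0 (by linarith : y ≤ 1)
  have h4 : 1 - y = x := by rw [hy]; ring
  rw [h4] at h3
  rw [← hy] at h2
  have h5 : log (x * y) = log x + log y := Real.log_mul hx0.ne' hy0.ne'
  unfold g binEntropy
  rw [h5, Real.log_inv, Real.log_inv, ← hy]
  have e1 : (x * y + 1) * log (x * y + 1) ≤ (x * y + 1) * (x * y) :=
    mul_le_mul_of_nonneg_left h1 (by linarith)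
  have e2 : x ^ 2 * (y + y ^ 2 / 2) ≤ x ^ 2 * (-log x) :=
    mul_le_mul_of_nonneg_left h2 (by positivity)
  have e3 : y ^ 2 * (x + x ^ 2 / 2) ≤ y ^ 2 * (-log y) :=
    mul_le_mul_of_nonneg_left h3 (by positivity)
  have hxy1 : x + y = 1 := by rw [hy]; ring
  have e4 : x * -log x + y * -log y - (x * y) * (-log x) - (x * y) * (-log y)
      = x ^ 2 * (-log x) + y ^ 2 * (-log y) := by
    have hx' : x = 1 - y := by linarith
    have : x * -log x - (x * y) * (-log x) = x ^ 2 * (-log x) := by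
      have : x * (1 - y) = x ^ 2 := by rw [← hx']; ring
      calc x * -log x - (x * y) * (-log x) = (x * (1 - y)) * (-log x) := by ring
        _ = _ := by rw [this]
    have h' : y * -log y - (x * y) * (-log y) = y ^ 2 * (-log y) := by
      have : y * (1 - x) = y ^ 2 := by rw [← hy]; ring
      calc y * -log y - (x * y) * (-log y) = (y * (1 - x)) * (-log y) := by ring
        _ = _ := by rw [this]
    linarith
  have e5 : x ^ 2 * (y + y ^ 2 / 2) + y ^ 2 * (x + x ^ 2 / 2) = (x * y + 1) * (x * y) := by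
    have : x ^ 2 * (y + y ^ 2 / 2) + y ^ 2 * (x + x ^ 2 / 2) = x * y * (x + y) + (x * y) ^ 2 := by ring
    rw [this, hxy1]; ring
  nlinarith

/-- comparison of the two Fisher-type quantities at `s = x (1 - x)` -/
lemma a_sq_lt_w {x : ℝ} (hx0 : 0 < x) (hx1 : x < 1) :
    (log (1 - x) - log x) ^ 2 * (x * (1 - x)) < w (x * (1 - x)) := by
  set s := x * (1 - x) with hs
  have hy0 : 0 < 1 - x := by linarith
  have hs0 : 0 < s := by positivity
  have hL := log_diff_pos hs0
  have h1 : log (1 - x) - log x ≤ log (s + 1) - log s := by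
    have : log ((1 - x) * s) ≤ log ((s + 1) * x) := by
      apply Real.log_le_log (by positivity)
      rw [hs]; nlinarith [mul_pos hx0 hx0, mul_pos hx0 hy0]
    rw [Real.log_mul hy0.ne' hs0.ne', Real.log_mul (x := s + 1) (y := x) (by linarith) hx0.ne'] at this
    linarith
  have h2 : log x - log (1 - x) ≤ log (s + 1) - log s := by
    have : log (x * s) ≤ log ((s + 1) * (1 - x)) := by
      apply Real.log_le_log (by positivity)
      rw [hs]; nlinarith [mul_pos hy0 hy0, mul_pos hx0 hy0]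
    rw [Real.log_mul hx0.ne' hs0.ne', Real.log_mul (x := s + 1) (y := 1 - x) (by linarith) hy0.ne'] at this
    linarith
  have h3 : (log (1 - x) - log x) ^ 2 ≤ (log (s + 1) - log s) ^ 2 := by
    apply sq_le_sq'
    · linarith
    · exact h1
  unfold w
  have h4 : (log (1 - x) - log x) ^ 2 * s ≤ (log (s + 1) - log s) ^ 2 * s :=
    mul_le_mul_of_nonneg_right h3 hs0.le
  have h5 : 0 < (log (s + 1) - log s) ^ 2 * s * s := by positivity
  nlinarith

/-- Joint concavity statement: the region `{(x, t) : g t ≤ binEntropy x}` is convex. -/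
theorem hypograph_convex {x₁ x₂ t₁ t₂ l : ℝ} (hx₁ : x₁ ∈ Set.Icc (0 : ℝ) 1)
    (hx₂ : x₂ ∈ Set.Icc (0 : ℝ) 1) (ht₁ : 0 ≤ t₁) (ht₂ : 0 ≤ t₂)
    (h₁ : g t₁ ≤ binEntropy x₁) (h₂ : g t₂ ≤ binEntropy x₂) (hl : l ∈ Set.Icc (0 : ℝ) 1) :
    g (t₂ + l * (t₁ - t₂)) ≤ binEntropy (x₂ + l * (x₁ - x₂)) := by
  set X : ℝ → ℝ := fun l => x₂ + l * (x₁ - x₂) with hX
  set T : ℝ → ℝ := fun l => t₂ + l * (t₁ - t₂) with hT
  set D : ℝ → ℝ := fun l => binEntropy (X l) - g (T l) with hD
  have hXc : Continuous X := by rw [hX]; fun_prop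
  have hTc : Continuous T := by rw [hT]; fun_prop
  have hDc : Continuous D := by
    rw [hD]
    exact (binEntropy_continuous.comp hXc).sub (g_continuous.comp hTc)
  obtain ⟨l₀, hl₀, hmin⟩ := isCompact_Icc.exists_isMinOn (Set.nonempty_Icc.mpr zero_le_one)
    hDc.continuousOn
  have hgoal : 0 ≤ D l₀ → g (T l) ≤ binEntropy (X l) := by
    intro h
    have := hmin hl
    simp only [Set.mem_ofPred_eq] at this
    have h2 : 0 ≤ D l := le_trans h this
    simp only [hD] at h2
    linarith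
  apply hgoal
  by_contra hneg
  rw [not_le] at hneg
  have hD0 : 0 ≤ D 0 := by simp only [hD, hX, hT]; simp; exact h₂
  have hD1 : 0 ≤ D 1 := by simp only [hD, hX, hT]; simp; exact h₁
  have hl0 : 0 < l₀ := by
    rcases eq_or_lt_of_le hl₀.1 with h | h
    · rw [← h] at hneg; linarith
    · exact h
  have hl1 : l₀ < 1 := by
    rcases eq_or_lt_of_le hl₀.2 with h | h
    · rw [h] at hneg; linarith
    · exact h
  have hlocmin : IsLocalMin D l₀ := hmin.isLocalMin (Icc_mem_nhds hl0 hl1)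
  -- positions at the minimum
  have hT0 : 0 ≤ T l₀ := by
    have : T l₀ = (1 - l₀) * t₂ + l₀ * t₁ := by simp only [hT]; ring
    rw [this]
    have := mul_nonneg (by linarith : 0 ≤ 1 - l₀) ht₂
    have := mul_nonneg hl0.le ht₁
    linarith
  have hX0 : 0 ≤ X l₀ := by
    have : X l₀ = (1 - l₀) * x₂ + l₀ * x₁ := by simp only [hX]; ring
    rw [this]
    have := mul_nonneg (by linarith : 0 ≤ 1 - l₀) hx₂.1
    have := mul_nonneg hl0.le hx₁.1
    linarith
  have hX1 : X l₀ ≤ 1 := by
    have : 1 - X l₀ = (1 - l₀) * (1 - x₂) + l₀ * (1 - x₁) := by simp only [hX]; ring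
    have h1 := mul_nonneg (by linarith : 0 ≤ 1 - l₀) (by linarith [hx₂.2] : 0 ≤ 1 - x₂)
    have h2 := mul_nonneg hl0.le (by linarith [hx₁.2] : 0 ≤ 1 - x₁)
    linarith
  have hgt : binEntropy (X l₀) < g (T l₀) := by simp only [hD] at hneg; linarith
  have hne : x₁ ≠ x₂ := by
    intro heq
    have hXl : X l₀ = x₁ := by simp only [hX, heq]; ring
    rw [hXl] at hgt
    rcases le_total t₁ t₂ with hle | hle
    · have : T l₀ ≤ t₂ := by
        simp only [hT]; nlinarith
      have := (g_le_iff hT0 ht₂).mpr this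
      rw [heq] at hgt
      linarith
    · have : T l₀ ≤ t₁ := by
        simp only [hT]; nlinarith
      have := (g_le_iff hT0 ht₁).mpr this
      linarith
  have hX0' : 0 < X l₀ := by
    rcases eq_or_lt_of_le hX0 with h | h
    · exfalso
      have h3 : X l₀ = (1 - l₀) * x₂ + l₀ * x₁ := by simp only [hX]; ring
      have h1 := mul_nonneg (by linarith : 0 ≤ 1 - l₀) hx₂.1
      have h2 := mul_nonneg hl0.le hx₁.1
      have h4 : (1 - l₀) * x₂ = 0 := by linarith
      have h5 : l₀ * x₁ = 0 := by linarith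
      have h6 : x₂ = 0 := by
        rcases mul_eq_zero.mp h4 with h | h
        · linarith
        · exact h
      have h7 : x₁ = 0 := by
        rcases mul_eq_zero.mp h5 with h | h
        · linarith
        · exact h
      exact hne (h7.trans h6.symm)
    · exact h
  have hX1' : X l₀ < 1 := by
    rcases eq_or_lt_of_le hX1 with h | h
    · exfalso
      have h3 : 1 - X l₀ = (1 - l₀) * (1 - x₂) + l₀ * (1 - x₁) := by simp only [hX]; ring
      have h1 := mul_nonneg (by linarith : 0 ≤ 1 - l₀) (by linarith [hx₂.2] : 0 ≤ 1 - x₂)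
      have h2 := mul_nonneg hl0.le (by linarith [hx₁.2] : 0 ≤ 1 - x₁)
      have h4 : (1 - l₀) * (1 - x₂) = 0 := by linarith
      have h5 : l₀ * (1 - x₁) = 0 := by linarith
      have h6 : x₂ = 1 := by
        rcases mul_eq_zero.mp h4 with h | h
        · linarith
        · linarith
      have h7 : x₁ = 1 := by
        rcases mul_eq_zero.mp h5 with h | h
        · linarith
        · linarith
      exact hne (h7.trans h6.symm)
    · exact h
  have hs_lt : X l₀ * (1 - X l₀) < T l₀ := by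
    have h1 := g_mul_one_sub_le hX0 hX1
    have h2 : g (X l₀ * (1 - X l₀)) < g (T l₀) := lt_of_le_of_lt h1 hgt
    exact (g_lt_iff (mul_nonneg hX0 (by linarith)) hT0).mp h2
  have hs0 : 0 < X l₀ * (1 - X l₀) := mul_pos hX0' (by linarith)
  have hT0' : 0 < T l₀ := lt_trans hs0 hs_lt
  -- first derivative
  set D1 : ℝ → ℝ := fun l => (log (1 - X l) - log (X l)) * (x₁ - x₂)
      - (log (T l + 1) - log (T l)) * (t₁ - t₂) with hD1
  have hXd : ∀ l, HasDerivAt X (x₁ - x₂) l := by
    intro l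
    have := ((hasDerivAt_id l).mul_const (x₁ - x₂)).const_add x₂
    simpa [hX] using this
  have hTd : ∀ l, HasDerivAt T (t₁ - t₂) l := by
    intro l
    have := ((hasDerivAt_id l).mul_const (t₁ - t₂)).const_add t₂
    simpa [hT] using this
  have hDd : ∀ l, 0 < X l → X l < 1 → 0 < T l → HasDerivAt D (D1 l) l := by
    intro l h0 h1 h2
    have e1 := (hasDerivAt_binEntropy h0.ne' h1.ne).comp l (hXd l)
    have e2 := (hasDerivAt_g h2).comp l (hTd l)
    exact e1.sub e2
  have hev : ∀ᶠ l in nhds l₀, 0 < X l ∧ X l < 1 ∧ 0 < T l := by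
    have e1 : ∀ᶠ l in nhds l₀, 0 < X l := hXc.continuousAt.eventually (lt_mem_nhds hX0')
    have e2 : ∀ᶠ l in nhds l₀, X l < 1 := hXc.continuousAt.eventually (gt_mem_nhds hX1')
    have e3 : ∀ᶠ l in nhds l₀, 0 < T l := hTc.continuousAt.eventually (lt_mem_nhds hT0')
    filter_upwards [e1, e2, e3] with l a b c using ⟨a, b, c⟩
  have hderivD : deriv D =ᶠ[nhds l₀] D1 := by
    filter_upwards [hev] with l hl
    exact (hDd l hl.1 hl.2.1 hl.2.2).deriv
  have hD1zero : D1 l₀ = 0 := by
    have := hlocmin.deriv_eq_zero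
    rw [(hDd l₀ hX0' hX1' hT0').deriv] at this
    exact this
  -- second derivative
  set D2 : ℝ := (-(x₁ - x₂) / (1 - X l₀) - (x₁ - x₂) / X l₀) * (x₁ - x₂)
      - ((t₁ - t₂) / (T l₀ + 1) - (t₁ - t₂) / T l₀) * (t₁ - t₂) with hD2
  have hD1d : HasDerivAt D1 D2 l₀ := by
    have e1 : HasDerivAt (fun l => log (1 - X l)) (-(x₁ - x₂) / (1 - X l₀)) l₀ :=
      ((hXd l₀).const_sub 1).log (by linarith)
    have e2 : HasDerivAt (fun l => log (X l)) ((x₁ - x₂) / X l₀) l₀ := (hXd l₀).log hX0'.ne'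
    have e3 : HasDerivAt (fun l => log (T l + 1)) ((t₁ - t₂) / (T l₀ + 1)) l₀ :=
      ((hTd l₀).add_const 1).log (by linarith)
    have e4 : HasDerivAt (fun l => log (T l)) ((t₁ - t₂) / T l₀) l₀ := (hTd l₀).log hT0'.ne'
    exact ((e1.sub e2).mul_const _).sub ((e3.sub e4).mul_const _)
  have hdd : deriv (deriv D) l₀ = D2 := by
    rw [hderivD.deriv_eq, hD1d.deriv]
  -- sign of the second derivative
  have hD2neg : D2 < 0 := by
    set a := log (1 - X l₀) - log (X l₀) with ha
    set b := log (T l₀ + 1) - log (T l₀) with hb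
    have hb0 : 0 < b := log_diff_pos hT0'
    have hab : a * (x₁ - x₂) = b * (t₁ - t₂) := by
      simp only [hD1] at hD1zero
      linarith
    have hw1 := a_sq_lt_w hX0' hX1'
    have hw2 := w_monotoneOn (Set.mem_Ioi.mpr hs0) (Set.mem_Ioi.mpr hT0') hs_lt.le
    have hw3 : a ^ 2 * (X l₀ * (1 - X l₀)) < T l₀ * (T l₀ + 1) * b ^ 2 := by
      have : w (T l₀) = T l₀ * (T l₀ + 1) * b ^ 2 := rfl
      rw [← this]
      exact lt_of_lt_of_le hw1 hw2
    have hdx : 0 < (x₁ - x₂) ^ 2 := by
      have : x₁ - x₂ ≠ 0 := sub_ne_zero.mpr hne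
      positivity
    have hY : 0 < 1 - X l₀ := by linarith
    have hT1 : 0 < T l₀ + 1 := by linarith
    have e1 : D2 = -(x₁ - x₂) ^ 2 / (X l₀ * (1 - X l₀)) + (t₁ - t₂) ^ 2 / (T l₀ * (T l₀ + 1)) := by
      rw [hD2]; field_simp; ring
    rw [e1]
    have e2 : (t₁ - t₂) ^ 2 / (T l₀ * (T l₀ + 1)) < (x₁ - x₂) ^ 2 / (X l₀ * (1 - X l₀)) := by
      rw [div_lt_div_iff₀ (by positivity) (by positivity)]
      have e3 : b ^ 2 * ((t₁ - t₂) ^ 2 * (X l₀ * (1 - X l₀))) <
          b ^ 2 * ((x₁ - x₂) ^ 2 * (T l₀ * (T l₀ + 1))) := by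
        have e4 : b ^ 2 * (t₁ - t₂) ^ 2 = a ^ 2 * (x₁ - x₂) ^ 2 := by
          rw [← mul_pow, ← mul_pow, hab]
        calc b ^ 2 * ((t₁ - t₂) ^ 2 * (X l₀ * (1 - X l₀)))
            = (b ^ 2 * (t₁ - t₂) ^ 2) * (X l₀ * (1 - X l₀)) := by ring
          _ = (x₁ - x₂) ^ 2 * (a ^ 2 * (X l₀ * (1 - X l₀))) := by rw [e4]; ring
          _ < (x₁ - x₂) ^ 2 * (T l₀ * (T l₀ + 1) * b ^ 2) := mul_lt_mul_of_pos_left hw3 hdx
          _ = _ := by ring
      exact lt_of_mul_lt_mul_left e3 (by positivity)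
    have e5 : -(x₁ - x₂) ^ 2 / (X l₀ * (1 - X l₀)) = -((x₁ - x₂) ^ 2 / (X l₀ * (1 - X l₀))) := by
      ring
    rw [e5]
    linarith
  have hlocmax : IsLocalMax D l₀ :=
    isLocalMax_of_deriv_deriv_neg (by rw [hdd]; exact hD2neg)
      (by rw [(hDd l₀ hX0' hX1' hT0').deriv]; exact hD1zero) hDc.continuousAt
  have hconst : D =ᶠ[nhds l₀] fun _ => D l₀ := by
    filter_upwards [hlocmin, hlocmax] with l h1 h2 using le_antisymm h2 h1
  have hz : deriv (deriv D) l₀ = 0 := by
    have h1 : deriv D =ᶠ[nhds l₀] deriv (fun _ => D l₀) := hconst.deriv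
    rw [h1.deriv_eq]
    simp
  rw [hdd] at hz
  linarith

/-- Gibbs-type bound: `negMulLog m + m log s ≤ s - m`. -/
lemma negMulLog_add_le {m s : ℝ} (hm : 0 ≤ m) (hs : 0 < s) : negMulLog m + m * log s ≤ s - m := by
  rcases eq_or_lt_of_le hm with rfl | hm
  · simp [hs.le]
  have h1 := log_le_sub_one_of_pos (div_pos hs hm)
  rw [Real.log_div hs.ne' hm.ne'] at h1
  have h2 := mul_le_mul_of_nonneg_left h1 hm.le
  have h3 : m * (s / m - 1) = s - m := by field_simp
  rw [h3] at h2
  unfold negMulLog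
  linarith

/-- The entropy of `(1 - s, s - e, e)` is at least the binary entropy of its mean `s + e`,
provided `e (1 - s) ≤ s ^ 2`. -/
lemma entropy_three_ge {s e : ℝ} (he : 0 ≤ e) (hes : e ≤ s) (hse : s + e ≤ 1)
    (hq : e * (1 - s) ≤ s ^ 2) :
    binEntropy (s + e) ≤ negMulLog (1 - s) + negMulLog (s - e) + negMulLog e := by
  rcases eq_or_lt_of_le he with rfl | he
  · rw [binEntropy_eq_negMulLog_add_negMulLog_one_sub]
    simp
    linarith
  have hs0 : 0 < s := lt_of_lt_of_le he hes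
  have hs1 : 0 < 1 - s := by linarith
  rw [binEntropy_eq_negMulLog_add_negMulLog_one_sub]
  have g1 := negMulLog_add_le (m := s + e) (s := s) (by linarith) hs0
  have g2 := negMulLog_add_le (m := 1 - (s + e)) (s := 1 - s) (by linarith) hs1
  -- step 1
  have st1 : (s - e) * log (s - e) ≤ (s - e) * log s := by
    rcases eq_or_lt_of_le hes with h | h
    · rw [h]; simp
    · apply mul_le_mul_of_nonneg_left _ (by linarith)
      exact Real.log_le_log (by linarith) (by linarith)
  -- final log inequality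
  have st2 : log e + log (1 - s) ≤ 2 * log s := by
    have : log (e * (1 - s)) ≤ log (s ^ 2) := Real.log_le_log (by positivity) hq
    rw [Real.log_mul he.ne' hs1.ne', Real.log_pow] at this
    simpa using this
  have st3 := mul_le_mul_of_nonneg_left st2 he.le
  simp only [negMulLog] at *
  nlinarith

end Vale.Agent.Lib.P369
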