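import Mathlib
import Vale.Agent.Lib.P369.Defs

/-!
# Photon-number distribution of the output for `n`-mode Fock-diagonal inputs
-/

namespace Vale.Agent.Lib.P369

/-- Photon-number distribution of the `n` output modes when the two `n`-mode inputs are the
Fock-diagonal states `∑ x, α x |x><x|` and `∑ y, β y |y><y|`, where `x`, `y` are tuples of photon
numbers (`x i < dA`, `y i < dB`).  The beam splitter acts mode by mode, so the probability of finding
the photon numbers `z` in the output modes is
`∑ x y, α x * β y * ∏ i, |<z i, x i + y i - z i| U_η |x i, y i>| ^ 2`. -/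
noncomputable def outLaw (η : ℝ) {n dA dB dC : ℕ} (α : (Fin n → Fin dA) → ℝ)
    (β : (Fin n → Fin dB) → ℝ) (z : Fin n → Fin dC) : ℝ :=
  ∑ x, ∑ y, α x * β y * ∏ i, bsAmp η (x i : ℕ) (y i : ℕ) (z i : ℕ) ^ 2

end Vale.Agent.Lib.P369
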