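import Mathlib
import Vale.Agent.Lib.P369.Defs
import Vale.Agent.Lib.P369.Analysis

/-!
# Concavity of the quasi-arithmetic mean attached to `g`
-/

namespace Vale.Agent.Lib.P369
open Real

lemma g_nonneg {t : ℝ} (ht : 0 ≤ t) : 0 ≤ g t := by
  have := (g_le_iff le_rfl ht).mpr ht
  rwa [g_zero] at this

lemma g_surj {u : ℝ} (hu : 0 ≤ u) : ∃ t, 0 ≤ t ∧ g t = u := by
  have hpos : 0 < exp u := exp_pos u
  have h1 : u ≤ g (exp u) := by
    have h2 : log (exp u + 1) - log (exp u) > 0 := log_diff_pos hpos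
    have h3 : u ≤ log (exp u + 1) := by
      calc u = log (exp u) := (log_exp u).symm
        _ ≤ log (exp u + 1) := Real.log_le_log hpos (by linarith)
    have h4 : g (exp u) = log (exp u + 1) + exp u * (log (exp u + 1) - log (exp u)) := by
      unfold g; ring
    rw [h4]
    have := mul_pos hpos h2
    linarith
  have := intermediate_value_Icc hpos.le g_continuous.continuousOn
  rw [g_zero] at this
  obtain ⟨t, ht, hgt⟩ := this ⟨hu, h1⟩
  exact ⟨t, ht.1, hgt⟩

/-- `k t = (1 + 2 t) (log (t+1) - log t) - 2`, the slope of `w` with respect to `g`. -/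
noncomputable def kk (t : ℝ) : ℝ := (1 + 2 * t) * (log (t + 1) - log t) - 2

lemma kk_pos {t : ℝ} (ht : 0 < t) : 0 < kk t := by
  have h := hasSum_log_one_add_inv ht
  have h2 := sum_le_hasSum (Finset.range 2) (fun n _ => by positivity) h
  simp only [Finset.sum_range_succ, Finset.sum_range_zero] at h2
  have h3 : log (1 + t⁻¹) = log (t + 1) - log t := by
    rw [← Real.log_div (by linarith) ht.ne']
    congr 1
    field_simp
  rw [h3] at h2
  unfold kk
  have hpos : 0 < 2 * t + 1 := by linarith
  have h4 : (1 + 2 * t) * (0 + 2 * (1 / (2 * ((0 : ℕ) : ℝ) + 1)) * (1 / (2 * t + 1)) ^ (2 * 0 + 1) +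
      2 * (1 / (2 * ((1 : ℕ) : ℝ) + 1)) * (1 / (2 * t + 1)) ^ (2 * 1 + 1)) =
      2 + 2 / 3 * (1 / (2 * t + 1)) ^ 2 := by
    have e : 1 + 2 * t = 2 * t + 1 := by ring
    rw [e]
    have hne : 2 * t + 1 ≠ 0 := hpos.ne'
    norm_num
    field_simp
  have h5 := mul_le_mul_of_nonneg_left h2 (by linarith : 0 ≤ 1 + 2 * t)
  rw [h4] at h5
  have h6 : 0 < 2 / 3 * (1 / (2 * t + 1)) ^ 2 := by positivity
  linarith

lemma log_diff_le {t : ℝ} (ht : 0 < t) :
    log (t + 1) - log t ≤ (1 + 2 * t) / (2 * t * (t + 1)) := by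
  have hy : 0 < (t + 1) / t := by positivity
  have h1 : 0 ≤ log ((t + 1) / t) := by
    apply Real.log_nonneg
    rw [le_div_iff₀ ht]; linarith
  have h2 := Real.self_le_sinh_iff.mpr h1
  rw [Real.sinh_log hy, Real.log_div (by linarith) ht.ne'] at h2
  refine le_trans h2 (le_of_eq ?_)
  field_simp
  ring

lemma hasDerivAt_kk {t : ℝ} (ht : 0 < t) : HasDerivAt kk
    (2 * (log (t + 1) - log t) - (1 + 2 * t) / (t * (t + 1))) t := by
  have hL : HasDerivAt (fun s : ℝ => log (s + 1) - log s) (1 / (t + 1) - 1 / t) t := by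
    have h1 : HasDerivAt (fun s : ℝ => log (s + 1)) (1 / (t + 1)) t := by
      have := (Real.hasDerivAt_log (x := t + 1) (by linarith)).comp_add_const t 1
      simpa using this
    have h2 : HasDerivAt (fun s : ℝ => log s) (1 / t) t := by
      simpa using Real.hasDerivAt_log ht.ne'
    exact h1.sub h2
  have hP : HasDerivAt (fun s : ℝ => 1 + 2 * s) 2 t := by
    simpa using ((hasDerivAt_id t).const_mul 2).const_add 1
  have := (hP.mul hL).sub_const 2
  have hk : kk = fun s => ((fun s : ℝ => 1 + 2 * s) * (fun s : ℝ => log (s + 1) - log s)) s - 2 := by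
    funext s; simp [kk]
  rw [hk]
  refine this.congr_deriv ?_
  field_simp
  ring

lemma kk_antitoneOn : AntitoneOn kk (Set.Ioi 0) := by
  apply antitoneOn_of_deriv_nonpos (convex_Ioi 0)
  · intro t ht
    exact (hasDerivAt_kk ht).continuousAt.continuousWithinAt
  · intro t ht
    rw [interior_Ioi] at ht
    exact (hasDerivAt_kk ht).differentiableAt.differentiableWithinAt
  · intro t ht
    rw [interior_Ioi] at ht
    rw [(hasDerivAt_kk ht).deriv]
    have h1 := log_diff_le ht
    have h2 : (1 + 2 * t) / (t * (t + 1)) = 2 * ((1 + 2 * t) / (2 * t * (t + 1))) := by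
      have ht' : 0 < t := ht
      field_simp
    rw [h2]
    linarith

/-- tangent line inequality for the concave curve `(g, w)` -/
lemma w_le_tangent {c t₀ : ℝ} (hc : 0 < c) (ht₀ : 0 < t₀) :
    w c ≤ w t₀ + kk t₀ * (g c - g t₀) := by
  set E : ℝ → ℝ := fun c => w t₀ + kk t₀ * (g c - g t₀) - w c with hE
  have hEd : ∀ c, 0 < c → HasDerivAt E ((log (c + 1) - log c) * (kk t₀ - kk c)) c := by
    intro c hc
    have h1 := (((hasDerivAt_g hc).sub_const (g t₀)).const_mul (kk t₀)).const_add (w t₀)
    have h2 := h1.sub (hasDerivAt_w hc)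
    refine h2.congr_deriv ?_
    unfold kk
    ring
  have hE0 : E t₀ = 0 := by simp [hE]
  have hgoal : 0 ≤ E c := by
    rcases le_total c t₀ with hle | hle
    · have hanti : AntitoneOn E (Set.Ioc 0 t₀) := by
        apply antitoneOn_of_deriv_nonpos (convex_Ioc 0 t₀)
        · intro s hs
          exact (hEd s hs.1).continuousAt.continuousWithinAt
        · intro s hs
          rw [interior_Ioc] at hs
          exact (hEd s hs.1).differentiableAt.differentiableWithinAt
        · intro s hs
          rw [interior_Ioc] at hs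
          rw [(hEd s hs.1).deriv]
          apply mul_nonpos_of_nonneg_of_nonpos (log_diff_pos hs.1).le
          have := kk_antitoneOn (Set.mem_Ioi.mpr hs.1) (Set.mem_Ioi.mpr ht₀) hs.2.le
          linarith
      have := hanti ⟨hc, hle⟩ ⟨ht₀, le_rfl⟩ hle
      rw [hE0] at this
      exact this
    · have hmono : MonotoneOn E (Set.Ici t₀) := by
        apply monotoneOn_of_deriv_nonneg (convex_Ici t₀)
        · intro s hs
          exact (hEd s (lt_of_lt_of_le ht₀ hs)).continuousAt.continuousWithinAt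
        · intro s hs
          rw [interior_Ici] at hs
          exact (hEd s (lt_trans ht₀ hs)).differentiableAt.differentiableWithinAt
        · intro s hs
          rw [interior_Ici] at hs
          have hs0 : 0 < s := lt_trans ht₀ hs
          rw [(hEd s hs0).deriv]
          apply mul_nonneg (log_diff_pos hs0).le
          have := kk_antitoneOn (Set.mem_Ioi.mpr ht₀) (Set.mem_Ioi.mpr hs0) (le_of_lt hs)
          linarith
      have := hmono (Set.mem_Ici.mpr le_rfl) (Set.mem_Ici.mpr hle) hle
      rw [hE0] at this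
      exact this
  simp only [hE] at hgoal
  linarith

lemma w_pos {t : ℝ} (ht : 0 < t) : 0 < w t := by
  unfold w
  have := log_diff_pos ht
  positivity

/-- Concavity of the quasi-arithmetic mean attached to `g` (positive arguments). -/
theorem quasi_mean_concave_pos {ι : Type*} [Fintype ι] (θ A B : ι → ℝ) (hθ : ∀ i, 0 ≤ θ i)
    (hθ1 : ∑ i, θ i = 1) (hA : ∀ i, 0 < A i) (hB : ∀ i, 0 < B i) {a b l : ℝ} (ha : 0 ≤ a)
    (hb : 0 ≤ b) (hga : g a ≤ ∑ i, θ i * g (A i)) (hgb : g b ≤ ∑ i, θ i * g (B i))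
    (hl : l ∈ Set.Icc (0 : ℝ) 1) :
    g (b + l * (a - b)) ≤ ∑ i, θ i * g (B i + l * (A i - B i)) := by
  set C : ι → ℝ → ℝ := fun i l => B i + l * (A i - B i) with hC
  set T : ℝ → ℝ := fun l => b + l * (a - b) with hT
  set D : ℝ → ℝ := fun l => ∑ i, θ i * g (C i l) - g (T l) with hD
  have hCc : ∀ i, Continuous (C i) := by intro i; simp only [hC]; fun_prop
  have hTc : Continuous T := by rw [hT]; fun_prop
  have hDc : Continuous D := by
    rw [hD]
    refine Continuous.sub ?_ (g_continuous.comp hTc)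
    exact continuous_finsetSum _ (fun i _ => continuous_const.mul (g_continuous.comp (hCc i)))
  obtain ⟨l₀, hl₀, hmin⟩ := isCompact_Icc.exists_isMinOn (Set.nonempty_Icc.mpr zero_le_one)
    hDc.continuousOn
  have hgoal : 0 ≤ D l₀ → g (T l) ≤ ∑ i, θ i * g (C i l) := by
    intro h
    have := hmin hl
    simp only [Set.mem_ofPred_eq] at this
    have h2 : 0 ≤ D l := le_trans h this
    simp only [hD] at h2
    linarith
  apply hgoal
  by_contra hneg
  rw [not_le] at hneg
  have hD0 : 0 ≤ D 0 := by simp only [hD, hC, hT]; simp; exact hgb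
  have hD1 : 0 ≤ D 1 := by simp only [hD, hC, hT]; simp; exact hga
  have hl0 : 0 < l₀ := by
    rcases eq_or_lt_of_le hl₀.1 with h | h
    · rw [← h] at hneg; linarith
    · exact h
  have hl1 : l₀ < 1 := by
    rcases eq_or_lt_of_le hl₀.2 with h | h
    · rw [h] at hneg; linarith
    · exact h
  have hlocmin : IsLocalMin D l₀ := hmin.isLocalMin (Icc_mem_nhds hl0 hl1)
  have hC0 : ∀ i, 0 < C i l₀ := by
    intro i
    have : C i l₀ = (1 - l₀) * B i + l₀ * A i := by simp only [hC]; ring
    rw [this]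
    have := mul_pos (by linarith : 0 < 1 - l₀) (hB i)
    have := mul_pos hl0 (hA i)
    linarith
  have hT0 : 0 ≤ T l₀ := by
    have : T l₀ = (1 - l₀) * b + l₀ * a := by simp only [hT]; ring
    rw [this]
    have := mul_nonneg (by linarith : 0 ≤ 1 - l₀) hb
    have := mul_nonneg hl0.le ha
    linarith
  have hsum_nonneg : 0 ≤ ∑ i, θ i * g (C i l₀) :=
    Finset.sum_nonneg (fun i _ => mul_nonneg (hθ i) (g_nonneg (hC0 i).le))
  have hgt : ∑ i, θ i * g (C i l₀) < g (T l₀) := by simp only [hD] at hneg; linarith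
  have hT0' : 0 < T l₀ := by
    rcases eq_or_lt_of_le hT0 with h | h
    · rw [← h, g_zero] at hgt; linarith
    · exact h
  -- derivatives
  set D1 : ℝ → ℝ := fun l => ∑ i, θ i * ((log (C i l + 1) - log (C i l)) * (A i - B i))
      - (log (T l + 1) - log (T l)) * (a - b) with hD1
  have hCd : ∀ i l, HasDerivAt (C i) (A i - B i) l := by
    intro i l
    have := ((hasDerivAt_id l).mul_const (A i - B i)).const_add (B i)
    simpa [hC] using this
  have hTd : ∀ l, HasDerivAt T (a - b) l := by
    intro l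
    have := ((hasDerivAt_id l).mul_const (a - b)).const_add b
    simpa [hT] using this
  have hDd : ∀ l, (∀ i, 0 < C i l) → 0 < T l → HasDerivAt D (D1 l) l := by
    intro l h1 h2
    have e1 : HasDerivAt (fun l => ∑ i, θ i * g (C i l))
        (∑ i, θ i * ((log (C i l + 1) - log (C i l)) * (A i - B i))) l := by
      apply HasDerivAt.fun_sum
      intro i _
      exact ((hasDerivAt_g (h1 i)).comp l (hCd i l)).const_mul (θ i)
    have e2 := (hasDerivAt_g h2).comp l (hTd l)
    exact e1.sub e2
  have hev : ∀ᶠ l in nhds l₀, (∀ i, 0 < C i l) ∧ 0 < T l := by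
    have e1 : ∀ᶠ l in nhds l₀, ∀ i, 0 < C i l := by
      rw [Filter.eventually_all]
      intro i
      exact (hCc i).continuousAt.eventually (lt_mem_nhds (hC0 i))
    have e3 : ∀ᶠ l in nhds l₀, 0 < T l := hTc.continuousAt.eventually (lt_mem_nhds hT0')
    filter_upwards [e1, e3] with l a c using ⟨a, c⟩
  have hderivD : deriv D =ᶠ[nhds l₀] D1 := by
    filter_upwards [hev] with l hl
    exact (hDd l hl.1 hl.2).deriv
  have hD1zero : D1 l₀ = 0 := by
    have := hlocmin.deriv_eq_zero
    rw [(hDd l₀ hC0 hT0').deriv] at this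
    exact this
  set D2 : ℝ := ∑ i, θ i * (((A i - B i) / (C i l₀ + 1) - (A i - B i) / C i l₀) * (A i - B i))
      - ((a - b) / (T l₀ + 1) - (a - b) / T l₀) * (a - b) with hD2
  have hD1d : HasDerivAt D1 D2 l₀ := by
    have e1 : HasDerivAt (fun l => ∑ i, θ i * ((log (C i l + 1) - log (C i l)) * (A i - B i)))
        (∑ i, θ i * (((A i - B i) / (C i l₀ + 1) - (A i - B i) / C i l₀) * (A i - B i))) l₀ := by
      apply HasDerivAt.fun_sum
      intro i _
      have e3 : HasDerivAt (fun l => log (C i l + 1)) ((A i - B i) / (C i l₀ + 1)) l₀ :=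
        ((hCd i l₀).add_const 1).log (by linarith [hC0 i])
      have e4 : HasDerivAt (fun l => log (C i l)) ((A i - B i) / C i l₀) l₀ :=
        (hCd i l₀).log (hC0 i).ne'
      exact ((e3.sub e4).mul_const _).const_mul _
    have e3 : HasDerivAt (fun l => log (T l + 1)) ((a - b) / (T l₀ + 1)) l₀ :=
      ((hTd l₀).add_const 1).log (by linarith)
    have e4 : HasDerivAt (fun l => log (T l)) ((a - b) / T l₀) l₀ := (hTd l₀).log hT0'.ne'
    exact e1.sub ((e3.sub e4).mul_const _)
  have hdd : deriv (deriv D) l₀ = D2 := by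
    rw [hderivD.deriv_eq, hD1d.deriv]
  -- sign of the second derivative
  set Q : ℝ := ∑ i, θ i * (A i - B i) ^ 2 / (C i l₀ * (C i l₀ + 1)) with hQ
  set W : ℝ := ∑ i, θ i * w (C i l₀) with hW
  set Lb := log (T l₀ + 1) - log (T l₀) with hLb
  have hLb0 : 0 < Lb := log_diff_pos hT0'
  have hQterm : ∀ i, 0 ≤ θ i * (A i - B i) ^ 2 / (C i l₀ * (C i l₀ + 1)) := by
    intro i
    have := hC0 i
    have := hθ i
    positivity
  have hQ0 : 0 ≤ Q := Finset.sum_nonneg (fun i _ => hQterm i)
  have hWlt : W < w (T l₀) := by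
    have h1 : W ≤ ∑ i, θ i * (w (T l₀) + kk (T l₀) * (g (C i l₀) - g (T l₀))) :=
      Finset.sum_le_sum (fun i _ => mul_le_mul_of_nonneg_left (w_le_tangent (hC0 i) hT0') (hθ i))
    have h2 : ∑ i, θ i * (w (T l₀) + kk (T l₀) * (g (C i l₀) - g (T l₀)))
        = w (T l₀) + kk (T l₀) * (∑ i, θ i * g (C i l₀) - g (T l₀)) := by
      have : ∀ i, θ i * (w (T l₀) + kk (T l₀) * (g (C i l₀) - g (T l₀)))
          = θ i * (w (T l₀) - kk (T l₀) * g (T l₀)) + kk (T l₀) * (θ i * g (C i l₀)) := by
        intro i; ring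
      simp only [this]
      rw [Finset.sum_add_distrib, ← Finset.sum_mul, ← Finset.mul_sum, hθ1]
      ring
    have h3 : kk (T l₀) * (∑ i, θ i * g (C i l₀) - g (T l₀)) < 0 :=
      mul_neg_of_pos_of_neg (kk_pos hT0') (by linarith)
    linarith
  have hCS : (Lb * (a - b)) ^ 2 ≤ W * Q := by
    have h1 : Lb * (a - b) = ∑ i, θ i * ((log (C i l₀ + 1) - log (C i l₀)) * (A i - B i)) := by
      simp only [hD1] at hD1zero
      linarith
    rw [h1]
    apply Finset.sum_sq_le_sum_mul_sum_of_sq_le_mul
    · intro i _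
      exact mul_nonneg (hθ i) (w_pos (hC0 i)).le
    · intro i _
      exact hQterm i
    · intro i _
      have := hC0 i
      apply le_of_eq
      unfold w
      field_simp
  have hD2eq : D2 = -Q + (a - b) ^ 2 / (T l₀ * (T l₀ + 1)) := by
    have e1 : ∑ i, θ i * (((A i - B i) / (C i l₀ + 1) - (A i - B i) / C i l₀) * (A i - B i))
        = -Q := by
      rw [hQ, ← Finset.sum_neg_distrib]
      apply Finset.sum_congr rfl
      intro i _
      have := hC0 i
      field_simp
      ring
    have e2 : ((a - b) / (T l₀ + 1) - (a - b) / T l₀) * (a - b)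
        = -((a - b) ^ 2 / (T l₀ * (T l₀ + 1))) := by
      field_simp
      ring
    rw [hD2, e1, e2]
    ring
  have hQpos : 0 < Q := by
    rcases eq_or_lt_of_le hQ0 with h | h
    · exfalso
      have h1 : (Lb * (a - b)) ^ 2 ≤ 0 := by rw [← h, mul_zero] at hCS; exact hCS
      have h2 : Lb * (a - b) = 0 := by
        have := sq_nonneg (Lb * (a - b))
        exact pow_eq_zero_iff (two_ne_zero) |>.mp (le_antisymm h1 this)
      have h3 : a - b = 0 := by
        rcases mul_eq_zero.mp h2 with h | h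
        · linarith
        · exact h
      have h4 := (Finset.sum_eq_zero_iff_of_nonneg (fun i _ => hQterm i)).mp h.symm
      have h5 : ∀ i, θ i * g (C i l₀) = θ i * g (C i 0) := by
        intro i
        have h6 := h4 i (Finset.mem_univ i)
        have h7 := hC0 i
        rw [div_eq_zero_iff] at h6
        rcases h6 with h6 | h6
        · rcases mul_eq_zero.mp h6 with h8 | h8
          · rw [h8]; simp
          · have h9 : A i - B i = 0 := pow_eq_zero_iff (two_ne_zero) |>.mp h8
            simp only [hC, h9]; simp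
        · exfalso
          have : 0 < C i l₀ * (C i l₀ + 1) := by positivity
          linarith
      have h6 : D l₀ = D 0 := by
        simp only [hD]
        rw [Finset.sum_congr rfl (fun i _ => h5 i)]
        simp only [hT, h3]; simp
      linarith
    · exact h
  have hD2neg : D2 < 0 := by
    rw [hD2eq]
    have hwT := w_pos hT0'
    have h1 : (a - b) ^ 2 / (T l₀ * (T l₀ + 1)) = (Lb * (a - b)) ^ 2 / w (T l₀) := by
      unfold w
      rw [← hLb]
      field_simp
    rw [h1]
    have h2 : (Lb * (a - b)) ^ 2 / w (T l₀) < Q := by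
      rw [div_lt_iff₀ hwT]
      calc (Lb * (a - b)) ^ 2 ≤ W * Q := hCS
        _ < w (T l₀) * Q := mul_lt_mul_of_pos_right hWlt hQpos
        _ = Q * w (T l₀) := mul_comm _ _
    linarith
  have hlocmax : IsLocalMax D l₀ :=
    isLocalMax_of_deriv_deriv_neg (by rw [hdd]; exact hD2neg)
      (by rw [(hDd l₀ hC0 hT0').deriv]; exact hD1zero) hDc.continuousAt
  have hconst : D =ᶠ[nhds l₀] fun _ => D l₀ := by
    filter_upwards [hlocmin, hlocmax] with l h1 h2 using le_antisymm h2 h1
  have hz : deriv (deriv D) l₀ = 0 := by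
    have h1 : deriv D =ᶠ[nhds l₀] deriv (fun _ => D l₀) := hconst.deriv
    rw [h1.deriv_eq]
    simp
  rw [hdd] at hz
  linarith

/-- Concavity of the quasi-arithmetic mean attached to `g` (nonnegative arguments). -/
theorem quasi_mean_concave {ι : Type*} [Fintype ι] (θ A B : ι → ℝ) (hθ : ∀ i, 0 ≤ θ i)
    (hθ1 : ∑ i, θ i = 1) (hA : ∀ i, 0 ≤ A i) (hB : ∀ i, 0 ≤ B i) {a b l : ℝ} (ha : 0 ≤ a)
    (hb : 0 ≤ b) (hga : g a ≤ ∑ i, θ i * g (A i)) (hgb : g b ≤ ∑ i, θ i * g (B i))
    (hl : l ∈ Set.Icc (0 : ℝ) 1) :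
    g (b + l * (a - b)) ≤ ∑ i, θ i * g (B i + l * (A i - B i)) := by
  set f : ℝ → ℝ := fun ε => ∑ i, θ i * g (B i + l * (A i - B i) + ε) with hf
  have hfc : Continuous f := by
    rw [hf]
    refine continuous_finsetSum _ (fun i _ => continuous_const.mul (g_continuous.comp ?_))
    fun_prop
  have htend : Filter.Tendsto f (nhdsWithin 0 (Set.Ioi 0)) (nhds (f 0)) :=
    (hfc.tendsto 0).mono_left nhdsWithin_le_nhds
  have hf0 : f 0 = ∑ i, θ i * g (B i + l * (A i - B i)) := by simp [hf]
  rw [← hf0]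
  refine ge_of_tendsto htend (eventually_nhdsWithin_of_forall ?_)
  intro ε hε
  have hε' : 0 < ε := hε
  have key := quasi_mean_concave_pos θ (fun i => A i + ε) (fun i => B i + ε) hθ hθ1
    (fun i => by have := hA i; linarith) (fun i => by have := hB i; linarith) ha hb
    (le_trans hga (Finset.sum_le_sum (fun i _ => mul_le_mul_of_nonneg_left
      ((g_le_iff (hA i) (by have := hA i; linarith)).mpr (by linarith)) (hθ i))))
    (le_trans hgb (Finset.sum_le_sum (fun i _ => mul_le_mul_of_nonneg_left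
      ((g_le_iff (hB i) (by have := hB i; linarith)).mpr (by linarith)) (hθ i)))) hl
  refine le_trans key (le_of_eq ?_)
  simp only [hf]
  apply Finset.sum_congr rfl
  intro i _
  congr 2
  ring

end Vale.Agent.Lib.P369
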