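import Mathlib
import Vale.Agent.Lib.P369.Defs
import Vale.Agent.Lib.P369.Analysis

/-!
# The single-mode inequality for mixtures of the vacuum and the one-photon Fock state
-/

namespace Vale.Agent.Lib.P369
open Real

section amp
variable {η : ℝ}

lemma amp_000 : bsAmp η 0 0 0 ^ 2 = 1 := by simp [bsAmp]
lemma amp_001 : bsAmp η 0 0 1 ^ 2 = 0 := by simp [bsAmp, Finset.sum_range_succ]
lemma amp_002 : bsAmp η 0 0 2 ^ 2 = 0 := by simp [bsAmp, Finset.sum_range_succ]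
lemma amp_100 (h1 : η ≤ 1) : bsAmp η 1 0 0 ^ 2 = 1 - η := by
  simp [bsAmp, Real.sq_sqrt (by linarith : 0 ≤ 1 - η)]
lemma amp_101 (h0 : 0 ≤ η) : bsAmp η 1 0 1 ^ 2 = η := by
  simp [bsAmp, Finset.sum_range_succ, Real.sq_sqrt h0]
lemma amp_102 : bsAmp η 1 0 2 ^ 2 = 0 := by simp [bsAmp, Finset.sum_range_succ]
lemma amp_010 (h0 : 0 ≤ η) : bsAmp η 0 1 0 ^ 2 = η := by
  simp [bsAmp, Real.sq_sqrt h0]
lemma amp_011 (h1 : η ≤ 1) : bsAmp η 0 1 1 ^ 2 = 1 - η := by
  simp [bsAmp, Finset.sum_range_succ, Real.sq_sqrt (by linarith : 0 ≤ 1 - η)]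
lemma amp_012 : bsAmp η 0 1 2 ^ 2 = 0 := by simp [bsAmp, Finset.sum_range_succ]
lemma amp_110 (h0 : 0 ≤ η) (h1 : η ≤ 1) : bsAmp η 1 1 0 ^ 2 = 2 * η * (1 - η) := by
  simp [bsAmp, Nat.factorial, mul_pow, Real.sq_sqrt h0, Real.sq_sqrt (by linarith : 0 ≤ 1 - η)]
  ring
lemma amp_111 (h0 : 0 ≤ η) (h1 : η ≤ 1) : bsAmp η 1 1 1 ^ 2 = (2 * η - 1) ^ 2 := by
  have e1 : √η * √η = η := Real.mul_self_sqrt h0
  have e2 : √(1 - η) * √(1 - η) = 1 - η := Real.mul_self_sqrt (by linarith)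
  simp [bsAmp, Finset.sum_range_succ, e1, e2]
  ring
lemma amp_112 (h0 : 0 ≤ η) (h1 : η ≤ 1) : bsAmp η 1 1 2 ^ 2 = 2 * η * (1 - η) := by
  simp [bsAmp, Finset.sum_range_succ, Nat.factorial, mul_pow, Real.sq_sqrt h0,
    Real.sq_sqrt (by linarith : 0 ≤ 1 - η)]
  ring

end amp

/-- single-letter inequality for mixtures of vacuum and one photon -/
theorem single_letter {η : ℝ} (h0 : 0 ≤ η) (h1 : η ≤ 1) (α β : Fin 2 → ℝ)
    (hα : ∀ x, 0 ≤ α x) (hα1 : ∑ x, α x = 1) (hβ : ∀ x, 0 ≤ β x) (hβ1 : ∑ x, β x = 1)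
    {a b : ℝ} (ha : 0 ≤ a) (hb : 0 ≤ b) (hga : g a ≤ entropy α) (hgb : g b ≤ entropy β) :
    g (η * a + (1 - η) * b) ≤
      entropy (fun z : Fin 3 => ∑ x, ∑ y, α x * β y * bsAmp η (x : ℕ) (y : ℕ) (z : ℕ) ^ 2) := by
  set p := α 1 with hp
  set q := β 1 with hq
  have hα0 : α 0 = 1 - p := by rw [Fin.sum_univ_two] at hα1; linarith
  have hβ0 : β 0 = 1 - q := by rw [Fin.sum_univ_two] at hβ1; linarith
  have hp0 : 0 ≤ p := hα 1
  have hq0 : 0 ≤ q := hβ 1
  have hp1 : p ≤ 1 := by have := hα 0; linarith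
  have hq1 : q ≤ 1 := by have := hβ 0; linarith
  have eα : entropy α = binEntropy p := by
    rw [binEntropy_eq_negMulLog_add_negMulLog_one_sub]
    simp only [entropy, Fin.sum_univ_two, hα0]
    ring
  have eβ : entropy β = binEntropy q := by
    rw [binEntropy_eq_negMulLog_add_negMulLog_one_sub]
    simp only [entropy, Fin.sum_univ_two, hβ0]
    ring
  rw [eα] at hga
  rw [eβ] at hgb
  set m := η * p + (1 - η) * q with hm
  set e := 2 * η * (1 - η) * p * q with he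
  have hconv := hypograph_convex (x₁ := p) (x₂ := q) (t₁ := a) (t₂ := b) (l := η)
    ⟨hp0, hp1⟩ ⟨hq0, hq1⟩ ha hb hga hgb ⟨h0, h1⟩
  have e1 : b + η * (a - b) = η * a + (1 - η) * b := by ring
  have e2 : q + η * (p - q) = m := by rw [hm]; ring
  rw [e1, e2] at hconv
  refine le_trans hconv ?_
  have hP : entropy (fun z : Fin 3 => ∑ x, ∑ y, α x * β y * bsAmp η (x : ℕ) (y : ℕ) (z : ℕ) ^ 2)
      = negMulLog (1 - (m - e)) + negMulLog ((m - e) - e) + negMulLog e := by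
    simp only [entropy, Fin.sum_univ_three, Fin.sum_univ_two, hα0, hβ0]
    simp only [Fin.val_zero, Fin.val_one, Fin.val_two, amp_000, amp_001, amp_002, amp_100 h1,
      amp_101 h0, amp_102, amp_010 h0, amp_011 h1, amp_012, amp_110 h0 h1, amp_111 h0 h1,
      amp_112 h0 h1]
    rw [← hp, ← hq]
    congr 1
    · congr 1
      · congr 1; rw [hm, he]; ring
      · congr 1; rw [hm, he]; ring
    · congr 1; rw [he]; ring
  rw [hP]
  have hη' : 0 ≤ 1 - η := by linarith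
  have he0 : 0 ≤ e := by rw [he]; positivity
  have hx : 0 ≤ η * p := by positivity
  have hy : 0 ≤ (1 - η) * q := by positivity
  have hexy : e = 2 * (η * p) * ((1 - η) * q) := by rw [he]; ring
  have hm0 : 0 ≤ m := by rw [hm]; linarith
  have hm1 : m ≤ 1 := by
    rw [hm]
    have := mul_le_mul_of_nonneg_left hp1 h0
    have := mul_le_mul_of_nonneg_left hq1 hη'
    linarith
  have h2e : 2 * e ≤ m ^ 2 := by
    rw [hexy, hm]; nlinarith [sq_nonneg (η * p - (1 - η) * q)]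
  have hem : 2 * e ≤ m := by nlinarith
  have key := entropy_three_ge (s := m - e) (e := e) he0 (by linarith) (by linarith) (by nlinarith)
  have e3 : m - e + e = m := by ring
  rw [e3] at key
  exact key

end Vale.Agent.Lib.P369
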