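import Mathlib
import Vale.Agent.Lib.P369.Defs
import Vale.Agent.Lib.P369.Analysis
import Vale.Agent.Lib.P369.QuasiMean

/-!
# Tensorisation of entropy photon-number type inequalities for classical two-input channels
-/

namespace Vale.Agent.Lib.P369
open Real

/-- a finite probability vector -/
def IsProb {ι : Type*} [Fintype ι] (P : ι → ℝ) : Prop := (∀ i, 0 ≤ P i) ∧ ∑ i, P i = 1

lemma IsProb.le_one {ι : Type*} [Fintype ι] {P : ι → ℝ} (h : IsProb P) (i : ι) : P i ≤ 1 := by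
  rw [← h.2]
  exact Finset.single_le_sum (fun j _ => h.1 j) (Finset.mem_univ i)

lemma entropy_nonneg {ι : Type*} [Fintype ι] {P : ι → ℝ} (h : IsProb P) : 0 ≤ entropy P :=
  Finset.sum_nonneg (fun i _ => negMulLog_nonneg (h.1 i) (h.le_one i))

/-- Jensen step for a mixture of probability vectors with unnormalised weights. -/
lemma mixture_step {I Z : Type*} [Fintype I] [Fintype Z] (c : I → ℝ) (R : I → Z → ℝ)
    (hc : ∀ i, 0 ≤ c i) (hR : ∀ i, IsProb (R i)) :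
    negMulLog (∑ i, c i) + ∑ i, c i * entropy (R i) ≤ ∑ z, negMulLog (∑ i, c i * R i z) := by
  set C := ∑ i, c i with hC
  have hC0 : 0 ≤ C := Finset.sum_nonneg (fun i _ => hc i)
  rcases eq_or_lt_of_le hC0 with h | h
  · have hz : ∀ i, c i = 0 := by
      intro i
      exact (Finset.sum_eq_zero_iff_of_nonneg (fun i _ => hc i)).mp h.symm i (Finset.mem_univ i)
    simp [← h, hz]
  · set θ : I → ℝ := fun i => c i / C with hθ
    have hθ0 : ∀ i, 0 ≤ θ i := fun i => div_nonneg (hc i) hC0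
    have hθ1 : ∑ i, θ i = 1 := by
      simp only [hθ]
      rw [← Finset.sum_div, ← hC, div_self h.ne']
    have hcθ : ∀ i, c i = C * θ i := by
      intro i; simp only [hθ]; field_simp
    set s : Z → ℝ := fun z => ∑ i, θ i * R i z with hs
    have hs1 : ∑ z, s z = 1 := by
      simp only [hs]
      rw [Finset.sum_comm]
      simp only [← Finset.mul_sum, (hR _).2, mul_one, hθ1]
    have hjen : ∀ z, ∑ i, θ i * negMulLog (R i z) ≤ negMulLog (s z) := by
      intro z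
      have := concaveOn_negMulLog.le_map_sum (t := Finset.univ) (w := θ) (p := fun i => R i z)
        (fun i _ => hθ0 i) hθ1 (fun i _ => (hR i).1 z)
      simpa [hs] using this
    have hexp : ∀ z, negMulLog (∑ i, c i * R i z) = s z * negMulLog C + C * negMulLog (s z) := by
      intro z
      have : ∑ i, c i * R i z = C * s z := by
        simp only [hs, Finset.mul_sum]
        apply Finset.sum_congr rfl
        intro i _
        rw [hcθ i]; ring
      rw [this, negMulLog_mul]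
    simp only [hexp]
    rw [Finset.sum_add_distrib, ← Finset.sum_mul, hs1, one_mul, ← Finset.mul_sum]
    have h2 : ∑ i, c i * entropy (R i) = C * ∑ z, ∑ i, θ i * negMulLog (R i z) := by
      rw [Finset.sum_comm, Finset.mul_sum]
      apply Finset.sum_congr rfl
      intro i _
      rw [hcθ i, ← Finset.mul_sum]
      simp only [entropy]
      ring
    rw [h2]
    have h3 : C * ∑ z, ∑ i, θ i * negMulLog (R i z) ≤ C * ∑ z, negMulLog (s z) :=
      mul_le_mul_of_nonneg_left (Finset.sum_le_sum (fun z _ => hjen z)) hC0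
    linarith

/-- Chain-rule type lower bound for the entropy of a mixture of product distributions. -/
lemma entropy_mixture_ge {I Z₁ Z₂ : Type*} [Fintype I] [Fintype Z₁] [Fintype Z₂] (wt : I → ℝ)
    (Q : I → Z₁ → ℝ) (R : I → Z₂ → ℝ) (hw : ∀ i, 0 ≤ wt i) (hQ : ∀ i, IsProb (Q i))
    (hR : ∀ i, IsProb (R i)) :
    entropy (fun z₁ => ∑ i, wt i * Q i z₁) + ∑ i, wt i * entropy (R i) ≤
      entropy (fun z : Z₁ × Z₂ => ∑ i, wt i * Q i z.1 * R i z.2) := by
  have h1 : ∀ z₁, negMulLog (∑ i, wt i * Q i z₁) + ∑ i, wt i * Q i z₁ * entropy (R i) ≤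
      ∑ z₂, negMulLog (∑ i, wt i * Q i z₁ * R i z₂) := by
    intro z₁
    exact mixture_step (fun i => wt i * Q i z₁) R (fun i => mul_nonneg (hw i) ((hQ i).1 z₁)) hR
  have h2 := Finset.sum_le_sum (fun z₁ (_ : z₁ ∈ Finset.univ) => h1 z₁)
  rw [Finset.sum_add_distrib] at h2
  have h3 : ∑ z₁, ∑ i, wt i * Q i z₁ * entropy (R i) = ∑ i, wt i * entropy (R i) := by
    rw [Finset.sum_comm]
    apply Finset.sum_congr rfl
    intro i _
    have : ∀ z₁, wt i * Q i z₁ * entropy (R i) = (wt i * entropy (R i)) * Q i z₁ := by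
      intro z₁; ring
    simp only [this]
    rw [← Finset.mul_sum, (hQ i).2, mul_one]
  rw [h3] at h2
  simp only [entropy] at h2 ⊢
  rw [Fintype.sum_prod_type]
  exact h2

/-- disintegration of a probability vector on a product -/
lemma disintegrate {X₁ X₂ : Type*} [Fintype X₁] [Fintype X₂] (α : X₁ × X₂ → ℝ) (hα : IsProb α) :
    ∃ (α₁ : X₁ → ℝ) (κ : X₁ → X₂ → ℝ), IsProb α₁ ∧ (∀ x₁, IsProb (κ x₁)) ∧
      ∀ x₁ x₂, α (x₁, x₂) = α₁ x₁ * κ x₁ x₂ := by
  classical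
  have hne : Nonempty X₂ := by
    by_contra hemp
    rw [not_nonempty_iff] at hemp
    have : ∑ x, α x = 0 := by
      rw [Fintype.sum_prod_type]
      simp
    rw [hα.2] at this
    exact one_ne_zero this
  obtain ⟨x₀⟩ := hne
  set α₁ : X₁ → ℝ := fun x₁ => ∑ x₂, α (x₁, x₂) with hα₁
  have hα₁0 : ∀ x₁, 0 ≤ α₁ x₁ := fun x₁ => Finset.sum_nonneg (fun x₂ _ => hα.1 _)
  refine ⟨α₁, fun x₁ => if α₁ x₁ = 0 then Pi.single x₀ 1 else fun x₂ => α (x₁, x₂) / α₁ x₁,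
    ⟨hα₁0, ?_⟩, ?_, ?_⟩
  · rw [← hα.2, Fintype.sum_prod_type]
  · intro x₁
    by_cases h : α₁ x₁ = 0
    · simp only [h, if_true]
      refine ⟨fun x₂ => ?_, by simp⟩
      by_cases hx : x₂ = x₀
      · simp [hx]
      · simp [hx]
    · simp only [h, if_false]
      refine ⟨fun x₂ => div_nonneg (hα.1 _) (hα₁0 x₁), ?_⟩
      rw [← Finset.sum_div]
      exact div_self h
  · intro x₁ x₂
    by_cases h : α₁ x₁ = 0
    · simp only [h, if_true, zero_mul]
      exact (Finset.sum_eq_zero_iff_of_nonneg (fun x₂ _ => hα.1 (x₁, x₂))).mp h x₂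
        (Finset.mem_univ x₂)
    · simp only [h, if_false]
      field_simp

lemma entropy_chain {X₁ X₂ : Type*} [Fintype X₁] [Fintype X₂] (α : X₁ × X₂ → ℝ) (α₁ : X₁ → ℝ)
    (κ : X₁ → X₂ → ℝ) (hκ : ∀ x₁, IsProb (κ x₁)) (h : ∀ x₁ x₂, α (x₁, x₂) = α₁ x₁ * κ x₁ x₂) :
    entropy α = entropy α₁ + ∑ x₁, α₁ x₁ * entropy (κ x₁) := by
  simp only [entropy]
  rw [Fintype.sum_prod_type, ← Finset.sum_add_distrib]
  apply Finset.sum_congr rfl
  intro x₁ _
  simp only [h, negMulLog_mul]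
  rw [Finset.sum_add_distrib, ← Finset.sum_mul, (hκ x₁).2, one_mul, ← Finset.mul_sum]

/-- output distribution of a two-input channel with independent inputs -/
def push {X Y Z : Type*} [Fintype X] [Fintype Y] (T : X → Y → Z → ℝ) (α : X → ℝ) (β : Y → ℝ)
    (z : Z) : ℝ := ∑ x, ∑ y, α x * β y * T x y z

lemma sum_mul_prod {X Y : Type*} [Fintype X] [Fintype Y] (α : X → ℝ) (β : Y → ℝ) :
    ∑ p : X × Y, α p.1 * β p.2 = (∑ x, α x) * ∑ y, β y := by
  rw [Fintype.sum_prod_type, Finset.sum_mul_sum]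

lemma push_isProb {X Y Z : Type*} [Fintype X] [Fintype Y] [Fintype Z] {T : X → Y → Z → ℝ}
    (hT : ∀ x y, IsProb (T x y)) {α : X → ℝ} {β : Y → ℝ} (hα : IsProb α) (hβ : IsProb β) :
    IsProb (push T α β) := by
  refine ⟨fun z => Finset.sum_nonneg (fun x _ => Finset.sum_nonneg (fun y _ =>
    mul_nonneg (mul_nonneg (hα.1 x) (hβ.1 y)) ((hT x y).1 z))), ?_⟩
  simp only [push]
  rw [Finset.sum_comm]
  have : ∀ x, ∑ z, ∑ y, α x * β y * T x y z = α x := by
    intro x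
    rw [Finset.sum_comm]
    simp only [← Finset.mul_sum, (hT x _).2, mul_one, hβ.2]
  simp only [this, hα.2]

/-- the entropy photon-number type inequality for a classical two-input channel, with weight `N` -/
def Good {X Y Z : Type*} [Fintype X] [Fintype Y] [Fintype Z] (η N : ℝ) (T : X → Y → Z → ℝ) : Prop :=
  ∀ (α : X → ℝ) (β : Y → ℝ), IsProb α → IsProb β → ∀ a b : ℝ, 0 ≤ a → 0 ≤ b →
    N * g a ≤ entropy α → N * g b ≤ entropy β →
    N * g (η * a + (1 - η) * b) ≤ entropy (push T α β)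

theorem Good.prod {X₁ Y₁ Z₁ X₂ Y₂ Z₂ : Type*} [Fintype X₁] [Fintype Y₁] [Fintype Z₁] [Fintype X₂]
    [Fintype Y₂] [Fintype Z₂] {η N₁ N₂ : ℝ} (hη0 : 0 ≤ η) (hη1 : η ≤ 1) (hN₁ : 0 < N₁)
    (hN₂ : 0 < N₂) {T₁ : X₁ → Y₁ → Z₁ → ℝ} {T₂ : X₂ → Y₂ → Z₂ → ℝ} (hT₁ : ∀ x y, IsProb (T₁ x y))
    (hT₂ : ∀ x y, IsProb (T₂ x y)) (h₁ : Good η N₁ T₁) (h₂ : Good η N₂ T₂) :
    Good η (N₁ + N₂) (fun (x : X₁ × X₂) (y : Y₁ × Y₂) (z : Z₁ × Z₂) =>
      T₁ x.1 y.1 z.1 * T₂ x.2 y.2 z.2) := by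
  intro α β hα hβ a b ha hb hA hB
  obtain ⟨α₁, κ, hα₁, hκ, hαeq⟩ := disintegrate α hα
  obtain ⟨β₁, lam, hβ₁, hlam, hβeq⟩ := disintegrate β hβ
  have chα := entropy_chain α α₁ κ hκ hαeq
  have chβ := entropy_chain β β₁ lam hlam hβeq
  have hN : 0 < N₁ + N₂ := by linarith
  -- the output as a mixture
  have hout : (push (fun (x : X₁ × X₂) (y : Y₁ × Y₂) (z : Z₁ × Z₂) =>
      T₁ x.1 y.1 z.1 * T₂ x.2 y.2 z.2) α β) = fun z : Z₁ × Z₂ =>
      ∑ p : X₁ × Y₁, (α₁ p.1 * β₁ p.2) * T₁ p.1 p.2 z.1 * push T₂ (κ p.1) (lam p.2) z.2 := by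
    funext z
    simp only [push, Fintype.sum_prod_type, hαeq, hβeq, Finset.mul_sum]
    apply Finset.sum_congr rfl
    intro x₁ _
    rw [Finset.sum_comm]
    apply Finset.sum_congr rfl
    intro y₁ _
    apply Finset.sum_congr rfl
    intro x₂ _
    apply Finset.sum_congr rfl
    intro y₂ _
    ring
  have hmix := entropy_mixture_ge (fun p : X₁ × Y₁ => α₁ p.1 * β₁ p.2)
    (fun p => T₁ p.1 p.2) (fun p => push T₂ (κ p.1) (lam p.2))
    (fun p => mul_nonneg (hα₁.1 _) (hβ₁.1 _)) (fun p => hT₁ _ _)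
    (fun p => push_isProb hT₂ (hκ _) (hlam _))
  rw [hout]
  refine le_trans ?_ hmix
  have hfirst : (fun z₁ => ∑ p : X₁ × Y₁, α₁ p.1 * β₁ p.2 * T₁ p.1 p.2 z₁) = push T₁ α₁ β₁ := by
    funext z₁
    simp only [push, Fintype.sum_prod_type]
  rw [hfirst]
  -- choose entropy photon numbers of all the pieces
  obtain ⟨a₁, ha₁, hga₁⟩ := g_surj (div_nonneg (entropy_nonneg hα₁) hN₁.le)
  obtain ⟨b₁, hb₁, hgb₁⟩ := g_surj (div_nonneg (entropy_nonneg hβ₁) hN₁.le)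
  have hex_a : ∀ x₁, ∃ t, 0 ≤ t ∧ g t = entropy (κ x₁) / N₂ :=
    fun x₁ => g_surj (div_nonneg (entropy_nonneg (hκ x₁)) hN₂.le)
  have hex_b : ∀ y₁, ∃ t, 0 ≤ t ∧ g t = entropy (lam y₁) / N₂ :=
    fun y₁ => g_surj (div_nonneg (entropy_nonneg (hlam y₁)) hN₂.le)
  choose a₂ ha₂ hga₂ using hex_a
  choose b₂ hb₂ hgb₂ using hex_b
  have e₁ := h₁ α₁ β₁ hα₁ hβ₁ a₁ b₁ ha₁ hb₁ (by rw [hga₁]; field_simp; exact le_rfl)
    (by rw [hgb₁]; field_simp; exact le_rfl)
  have e₂ : ∀ p : X₁ × Y₁, N₂ * g (η * a₂ p.1 + (1 - η) * b₂ p.2) ≤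
      entropy (push T₂ (κ p.1) (lam p.2)) := by
    intro p
    exact h₂ (κ p.1) (lam p.2) (hκ _) (hlam _) _ _ (ha₂ _) (hb₂ _)
      (by rw [hga₂]; field_simp; exact le_rfl) (by rw [hgb₂]; field_simp; exact le_rfl)
  -- weights for the quasi-arithmetic mean
  set θ : Option (X₁ × Y₁) → ℝ := fun o => o.elim (N₁ / (N₁ + N₂))
    (fun p => N₂ / (N₁ + N₂) * (α₁ p.1 * β₁ p.2)) with hθ
  set Aa : Option (X₁ × Y₁) → ℝ := fun o => o.elim a₁ (fun p => a₂ p.1) with hAa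
  set Bb : Option (X₁ × Y₁) → ℝ := fun o => o.elim b₁ (fun p => b₂ p.2) with hBb
  have hprod1 : ∑ p : X₁ × Y₁, α₁ p.1 * β₁ p.2 = 1 := by
    rw [sum_mul_prod, hα₁.2, hβ₁.2, one_mul]
  have hθ0 : ∀ o, 0 ≤ θ o := by
    intro o
    cases o with
    | none => simp only [hθ, Option.elim]; positivity
    | some p =>
      simp only [hθ, Option.elim]
      have := hα₁.1 p.1
      have := hβ₁.1 p.2
      positivity
  have hθ1 : ∑ o, θ o = 1 := by
    rw [Fintype.sum_option]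
    simp only [hθ, Option.elim]
    rw [← Finset.mul_sum, hprod1]
    field_simp
  have hAa0 : ∀ o, 0 ≤ Aa o := by
    intro o
    cases o with
    | none => exact ha₁
    | some p => exact ha₂ p.1
  have hBb0 : ∀ o, 0 ≤ Bb o := by
    intro o
    cases o with
    | none => exact hb₁
    | some p => exact hb₂ p.2
  have hsumA : ∑ p : X₁ × Y₁, α₁ p.1 * β₁ p.2 * g (a₂ p.1) = ∑ x₁, α₁ x₁ * g (a₂ x₁) := by
    rw [Fintype.sum_prod_type]
    apply Finset.sum_congr rfl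
    intro x₁ _
    have : ∀ y₁, α₁ x₁ * β₁ y₁ * g (a₂ x₁) = (α₁ x₁ * g (a₂ x₁)) * β₁ y₁ := by intro y₁; ring
    simp only [this]
    rw [← Finset.mul_sum, hβ₁.2, mul_one]
  have hsumB : ∑ p : X₁ × Y₁, α₁ p.1 * β₁ p.2 * g (b₂ p.2) = ∑ y₁, β₁ y₁ * g (b₂ y₁) := by
    rw [Fintype.sum_prod_type, Finset.sum_comm]
    apply Finset.sum_congr rfl
    intro y₁ _
    have : ∀ x₁, α₁ x₁ * β₁ y₁ * g (b₂ y₁) = (β₁ y₁ * g (b₂ y₁)) * α₁ x₁ := by intro x₁; ring
    simp only [this]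
    rw [← Finset.mul_sum, hα₁.2, mul_one]
  have hgA : g a ≤ ∑ o, θ o * g (Aa o) := by
    rw [Fintype.sum_option]
    simp only [hθ, hAa, Option.elim]
    have h1 : ∑ p : X₁ × Y₁, N₂ / (N₁ + N₂) * (α₁ p.1 * β₁ p.2) * g (a₂ p.1)
        = N₂ / (N₁ + N₂) * ∑ x₁, α₁ x₁ * g (a₂ x₁) := by
      rw [← hsumA, Finset.mul_sum]
      apply Finset.sum_congr rfl
      intro p _
      ring
    rw [h1, hga₁]
    simp only [hga₂]
    have h2 : ∑ x₁, α₁ x₁ * (entropy (κ x₁) / N₂) = (∑ x₁, α₁ x₁ * entropy (κ x₁)) / N₂ := by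
      rw [Finset.sum_div]
      apply Finset.sum_congr rfl
      intro x₁ _
      ring
    rw [h2]
    have h3 : N₁ / (N₁ + N₂) * (entropy α₁ / N₁) +
        N₂ / (N₁ + N₂) * ((∑ x₁, α₁ x₁ * entropy (κ x₁)) / N₂) = entropy α / (N₁ + N₂) := by
      rw [chα]; field_simp
    rw [h3, le_div_iff₀ hN]
    linarith
  have hgB : g b ≤ ∑ o, θ o * g (Bb o) := by
    rw [Fintype.sum_option]
    simp only [hθ, hBb, Option.elim]
    have h1 : ∑ p : X₁ × Y₁, N₂ / (N₁ + N₂) * (α₁ p.1 * β₁ p.2) * g (b₂ p.2)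
        = N₂ / (N₁ + N₂) * ∑ y₁, β₁ y₁ * g (b₂ y₁) := by
      rw [← hsumB, Finset.mul_sum]
      apply Finset.sum_congr rfl
      intro p _
      ring
    rw [h1, hgb₁]
    simp only [hgb₂]
    have h2 : ∑ y₁, β₁ y₁ * (entropy (lam y₁) / N₂) = (∑ y₁, β₁ y₁ * entropy (lam y₁)) / N₂ := by
      rw [Finset.sum_div]
      apply Finset.sum_congr rfl
      intro y₁ _
      ring
    rw [h2]
    have h3 : N₁ / (N₁ + N₂) * (entropy β₁ / N₁) +
        N₂ / (N₁ + N₂) * ((∑ y₁, β₁ y₁ * entropy (lam y₁)) / N₂) = entropy β / (N₁ + N₂) := by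
      rw [chβ]; field_simp
    rw [h3, le_div_iff₀ hN]
    linarith
  have hQ := quasi_mean_concave θ Aa Bb hθ0 hθ1 hAa0 hBb0 ha hb hgA hgB ⟨hη0, hη1⟩
  rw [Fintype.sum_option] at hQ
  simp only [hθ, hAa, hBb, Option.elim] at hQ
  have r0 : b + η * (a - b) = η * a + (1 - η) * b := by ring
  have r1 : b₁ + η * (a₁ - b₁) = η * a₁ + (1 - η) * b₁ := by ring
  have r2 : ∀ p : X₁ × Y₁, b₂ p.2 + η * (a₂ p.1 - b₂ p.2) = η * a₂ p.1 + (1 - η) * b₂ p.2 := by
    intro p; ring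
  rw [r0, r1] at hQ
  simp only [r2] at hQ
  have hQ' := mul_le_mul_of_nonneg_left hQ hN.le
  refine le_trans hQ' ?_
  have h4 : (N₁ + N₂) * (N₁ / (N₁ + N₂) * g (η * a₁ + (1 - η) * b₁) +
      ∑ p : X₁ × Y₁, N₂ / (N₁ + N₂) * (α₁ p.1 * β₁ p.2) * g (η * a₂ p.1 + (1 - η) * b₂ p.2))
      = N₁ * g (η * a₁ + (1 - η) * b₁) +
        ∑ p : X₁ × Y₁, (α₁ p.1 * β₁ p.2) * (N₂ * g (η * a₂ p.1 + (1 - η) * b₂ p.2)) := by
    rw [mul_add, Finset.mul_sum]
    congr 1
    · field_simp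
    · apply Finset.sum_congr rfl
      intro p _
      field_simp
  rw [h4]
  apply add_le_add e₁
  apply Finset.sum_le_sum
  intro p _
  exact mul_le_mul_of_nonneg_left (e₂ p) (mul_nonneg (hα₁.1 _) (hβ₁.1 _))

lemma entropy_comp_equiv {ι κ : Type*} [Fintype ι] [Fintype κ] (e : ι ≃ κ) (P : κ → ℝ) :
    entropy (fun i => P (e i)) = entropy P := by
  simp only [entropy]
  exact Equiv.sum_comp e (fun k => negMulLog (P k))

lemma IsProb.comp_equiv {ι κ : Type*} [Fintype ι] [Fintype κ] (e : ι ≃ κ) {P : κ → ℝ}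
    (h : IsProb P) : IsProb (fun i => P (e i)) :=
  ⟨fun i => h.1 _, by rw [← h.2]; exact Equiv.sum_comp e P⟩

theorem Good.relabel {X Y Z X' Y' Z' : Type*} [Fintype X] [Fintype Y] [Fintype Z] [Fintype X']
    [Fintype Y'] [Fintype Z'] {η N : ℝ} {T : X → Y → Z → ℝ} (h : Good η N T) (eX : X' ≃ X)
    (eY : Y' ≃ Y) (eZ : Z' ≃ Z) : Good η N (fun x y z => T (eX x) (eY y) (eZ z)) := by
  intro α β hα hβ a b ha hb hA hB
  have hα' := hα.comp_equiv eX.symm
  have hβ' := hβ.comp_equiv eY.symm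
  have key := h (fun x => α (eX.symm x)) (fun y => β (eY.symm y)) hα' hβ' a b ha hb
    (by rw [entropy_comp_equiv eX.symm α]; exact hA)
    (by rw [entropy_comp_equiv eY.symm β]; exact hB)
  refine le_trans key (le_of_eq ?_)
  rw [← entropy_comp_equiv eZ]
  congr 1
  funext z
  simp only [push]
  rw [← Equiv.sum_comp eX]
  apply Finset.sum_congr rfl
  intro x _
  rw [← Equiv.sum_comp eY]
  apply Finset.sum_congr rfl
  intro y _
  simp

/-- `n`-fold product of a channel -/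
def kpow {X Y Z : Type*} (T : X → Y → Z → ℝ) (n : ℕ) (x : Fin n → X) (y : Fin n → Y)
    (z : Fin n → Z) : ℝ := ∏ i, T (x i) (y i) (z i)

lemma kpow_isProb {X Y Z : Type*} [Fintype Z] [DecidableEq Z] {T : X → Y → Z → ℝ}
    (hT : ∀ x y, IsProb (T x y)) (n : ℕ) (x : Fin n → X) (y : Fin n → Y) :
    IsProb (kpow T n x y) := by
  refine ⟨fun z => Finset.prod_nonneg (fun i _ => (hT _ _).1 _), ?_⟩
  simp only [kpow]
  have := Finset.prod_univ_sum (fun _ : Fin n => (Finset.univ : Finset Z))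
    (fun i z => T (x i) (y i) z)
  rw [Fintype.piFinset_univ] at this
  rw [← this]
  simp [(hT _ _).2]

theorem Good.pow {X Y Z : Type*} [Fintype X] [Fintype Y] [Fintype Z] [DecidableEq Z] {η : ℝ}
    (hη0 : 0 ≤ η) (hη1 : η ≤ 1) {T : X → Y → Z → ℝ} (hT : ∀ x y, IsProb (T x y))
    (h : Good η 1 T) (n : ℕ) : Good η ((n : ℝ) + 1) (kpow T (n + 1)) := by
  induction n with
  | zero =>
    have h1 := h.relabel (Equiv.funUnique (Fin 1) X) (Equiv.funUnique (Fin 1) Y)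
      (Equiv.funUnique (Fin 1) Z)
    have h2 : (fun (x : Fin 1 → X) (y : Fin 1 → Y) (z : Fin 1 → Z) =>
        T (Equiv.funUnique (Fin 1) X x) (Equiv.funUnique (Fin 1) Y y)
          (Equiv.funUnique (Fin 1) Z z)) = kpow T (0 + 1) := by
      funext x y z
      simp [kpow, Equiv.funUnique]
    rw [h2] at h1
    simpa using h1
  | succ n ih =>
    have h1 := Good.prod hη0 hη1 one_pos (by positivity : (0 : ℝ) < (n : ℝ) + 1) hT
      (kpow_isProb hT (n + 1)) h ih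
    have h2 := h1.relabel (Fin.consEquiv (fun _ : Fin (n + 1 + 1) => X)).symm
      (Fin.consEquiv (fun _ : Fin (n + 1 + 1) => Y)).symm
      (Fin.consEquiv (fun _ : Fin (n + 1 + 1) => Z)).symm
    have h3 : (fun (x : Fin (n + 1 + 1) → X) (y : Fin (n + 1 + 1) → Y) (z : Fin (n + 1 + 1) → Z) =>
        T ((Fin.consEquiv (fun _ : Fin (n + 1 + 1) => X)).symm x).1
          ((Fin.consEquiv (fun _ : Fin (n + 1 + 1) => Y)).symm y).1
          ((Fin.consEquiv (fun _ : Fin (n + 1 + 1) => Z)).symm z).1 *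
        kpow T (n + 1) ((Fin.consEquiv (fun _ : Fin (n + 1 + 1) => X)).symm x).2
          ((Fin.consEquiv (fun _ : Fin (n + 1 + 1) => Y)).symm y).2
          ((Fin.consEquiv (fun _ : Fin (n + 1 + 1) => Z)).symm z).2) = kpow T (n + 1 + 1) := by
      funext x y z
      simp only [kpow]
      rw [Fin.prod_univ_succ (fun i => T (x i) (y i) (z i))]
      rfl
    rw [h3] at h2
    have h4 : (1 : ℝ) + ((n : ℝ) + 1) = ((n + 1 : ℕ) : ℝ) + 1 := by push_cast; ring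
    rw [h4] at h2
    exact h2

end Vale.Agent.Lib.P369
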